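import Vale.Agent.P205.Final

open scoped ContDiff

/-- Every metric `e^{2u} |dp|²` on a torus `ℝ²/(ℤa + ℤb)` (by uniformization: every Riemannian metric
on the two-torus) has a smooth isometric immersion into Euclidean `ℝ⁴`. -/
theorem Vale.Agent.Results.P205.AllTori.result (a b : ℝ × ℝ) (hab : a.1 * b.2 - a.2 * b.1 ≠ 0)
    (u : ℝ × ℝ → ℝ) (hu : ContDiff ℝ ∞ u) (hua : ∀ p, u (p + a) = u p) (hub : ∀ p, u (p + b) = u p) :
    ∃ F : ℝ × ℝ → EuclideanSpace ℝ (Fin 4), ContDiff ℝ ∞ F ∧ (∀ p, F (p + a) = F p) ∧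
      (∀ p, F (p + b) = F p) ∧
      ∀ p v w, inner ℝ (fderiv ℝ F p v) (fderiv ℝ F p w) =
        Real.exp (2 * u p) * (v.1 * w.1 + v.2 * w.2) :=
  Vale.Agent.P205.all_tori a b hab u hu hua hub
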