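import Mathlib
import Vale.Agent.P205.Invariant

open scoped ContDiff

/-- Every circle-invariant metric `f(y)² dx² + dy²` on the torus
`ℝ² / ⟨(2π, 0), (T, P)⟩` has a smooth isometric immersion into Euclidean four-space. -/
theorem Vale.Agent.Results.P205.InvariantTori.result
    (P T : ℝ) (hP : 0 < P) (f : ℝ → ℝ) (hf : ContDiff ℝ ∞ f)
    (hpos : ∀ y, 0 < f y) (hper : ∀ y, f (y + P) = f y) :
    ∃ F : ℝ × ℝ → EuclideanSpace ℝ (Fin 4), ContDiff ℝ ∞ F ∧
      (∀ x y, F (x + 2 * Real.pi, y) = F (x, y)) ∧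
      (∀ x y, F (x + T, y + P) = F (x, y)) ∧
      ∀ p v w : ℝ × ℝ, inner ℝ (fderiv ℝ F p v) (fderiv ℝ F p w)
        = f p.2 ^ 2 * v.1 * w.1 + v.2 * w.2 := by
  obtain ⟨G, hc, h1, h2, h3⟩ := Vale.Agent.P205.invariant_torus P T hP f hf hpos hper
  refine ⟨Vale.Agent.P205.pack G, Vale.Agent.P205.pack_contDiff hc, ?_, ?_, ?_⟩
  · intro x y
    exact congrArg (WithLp.toLp 2) (funext fun k => h1 k x y)
  · intro x y
    exact congrArg (WithLp.toLp 2) (funext fun k => h2 k x y)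
  · intro p v w
    rw [Vale.Agent.P205.pack_inner hc]
    exact h3 p v w
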